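import Vale.Agent.P088.H833.JE.Defs

/-!
# P088, theorem JE, row JE_SGC: continuity of `√(det M) M⁻¹` at the multiples of `1`, uniform on
compact sets
-/

open Set Filter Topology

noncomputable section

namespace Vale.Agent.P088.H443

variable {n : ℕ}

/-- `√(det M) M⁻¹`, entrywise. -/
def fe (i j : Fin n) (M : Fin n → Fin n → ℝ) : ℝ :=
  √(Matrix.of M).det * ((Matrix.of M).det⁻¹ * (Matrix.of M).adjugate i j)

theorem fe_eq (M : Matrix (Fin n) (Fin n) ℝ) (i j : Fin n) :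
    (√M.det • M⁻¹) i j = fe i j M := by
  simp only [fe, Matrix.smul_apply, Matrix.inv_def, Ring.inverse_eq_inv', smul_eq_mul]
  rfl

theorem fe_one (y : ℝ) (hy : 0 < y) (i j : Fin n) :
    fe i j (fun k l => y * (1 : Matrix (Fin n) (Fin n) ℝ) k l)
      = y ^ ((n : ℝ) / 2 - 1) * (1 : Matrix (Fin n) (Fin n) ℝ) i j := by
  have h0 : (Matrix.of fun k l => y * (1 : Matrix (Fin n) (Fin n) ℝ) k l)
      = y • (1 : Matrix (Fin n) (Fin n) ℝ) := by
    ext k l; simp
  have h1 := fe_eq (y • (1 : Matrix (Fin n) (Fin n) ℝ)) i j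
  have h2 : (y • (1 : Matrix (Fin n) (Fin n) ℝ))⁻¹ = y⁻¹ • (1 : Matrix (Fin n) (Fin n) ℝ) := by
    apply Matrix.inv_eq_right_inv
    rw [Matrix.smul_mul, Matrix.one_mul, smul_smul, mul_inv_cancel₀ hy.ne', one_smul]
  have h3 : √(y • (1 : Matrix (Fin n) (Fin n) ℝ)).det * y⁻¹ = y ^ ((n : ℝ) / 2 - 1) := by
    rw [Matrix.det_smul, Matrix.det_one, Fintype.card_fin, mul_one, Real.rpow_sub_one hy.ne',
      Real.sqrt_eq_rpow, ← Real.rpow_natCast, ← Real.rpow_mul hy.le]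
    rw [show (n : ℝ) * (1 / 2) = (n : ℝ) / 2 by ring]
    rfl
  rw [h2] at h1
  have h4 : fe i j (fun k l => y * (1 : Matrix (Fin n) (Fin n) ℝ) k l)
      = fe i j (y • (1 : Matrix (Fin n) (Fin n) ℝ)) := by
    unfold fe; rw [h0]; rfl
  rw [h4, ← h1, smul_smul, Matrix.smul_apply, smul_eq_mul, h3]

theorem fe_cont (i j : Fin n) (M : Fin n → Fin n → ℝ) (h : (Matrix.of M).det ≠ 0) :
    ContinuousAt (fe i j) M := by
  have h1 : Continuous fun M : Fin n → Fin n → ℝ => (Matrix.of M).det :=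
    Continuous.matrix_det continuous_id
  have h2 : Continuous fun M : Fin n → Fin n → ℝ => (Matrix.of M).adjugate i j :=
    (Continuous.matrix_adjugate continuous_id).matrix_elem i j
  exact (Real.continuous_sqrt.comp h1).continuousAt.mul
    ((h1.continuousAt.inv₀ h).mul h2.continuousAt)

theorem sgc1 (i j : Fin n) (a b η : ℝ) (ha : 0 < a) (hη : 0 < η) : ∃ δ > 0,
    ∀ (M : Fin n → Fin n → ℝ) (y : ℝ), a ≤ y → y ≤ b →
      (∀ k l, |M k l - y * (1 : Matrix (Fin n) (Fin n) ℝ) k l| ≤ δ) →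
      |fe i j M - y ^ ((n : ℝ) / 2 - 1) * (1 : Matrix (Fin n) (Fin n) ℝ) i j| ≤ η := by
  set g : ℝ → Fin n → Fin n → ℝ := fun y k l => y * (1 : Matrix (Fin n) (Fin n) ℝ) k l with hg
  have hgc : Continuous g := by
    refine continuous_pi fun k => continuous_pi fun l => ?_
    exact continuous_id.mul continuous_const
  have hK : IsCompact (g '' Icc a b) := isCompact_Icc.image hgc
  have hf : ∀ M ∈ g '' Icc a b, ContinuousAt (fe i j) M := by
    rintro _ ⟨y, hy, rfl⟩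
    apply fe_cont
    have h0 : Matrix.of (g y) = y • (1 : Matrix (Fin n) (Fin n) ℝ) := by
      ext k l; simp [hg]
    rw [h0, Matrix.det_smul, Matrix.det_one, mul_one]
    exact pow_ne_zero _ (lt_of_lt_of_le ha hy.1).ne'
  have h := hK.uniformContinuousAt_of_continuousAt (fe i j) hf (Metric.dist_mem_uniformity hη)
  obtain ⟨ε, hε, h⟩ := Metric.mem_uniformity_dist.1 h
  refine ⟨ε / 2, half_pos hε, fun M y hy1 hy2 hM => ?_⟩
  have hd : dist (g y) M < ε := by
    refine lt_of_le_of_lt ?_ (half_lt_self hε)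
    rw [dist_pi_le_iff (half_pos hε).le]
    intro k
    rw [dist_pi_le_iff (half_pos hε).le]
    intro l
    rw [dist_comm, Real.dist_eq]
    exact hM k l
  have h' := h hd (mem_image_of_mem g ⟨hy1, hy2⟩)
  have h'' : dist (fe i j (g y)) (fe i j M) < η := h'
  rw [dist_comm, Real.dist_eq, fe_one y (lt_of_lt_of_le ha hy1)] at h''
  exact h''.le

theorem sgc (n : ℕ) (a b η : ℝ) (ha : 0 < a) (hη : 0 < η) : ∃ δ > 0,
    ∀ (M : Matrix (Fin n) (Fin n) ℝ) (y : ℝ), a ≤ y → y ≤ b →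
      (∀ i j, |M i j - y * (1 : Matrix (Fin n) (Fin n) ℝ) i j| ≤ δ) →
      ∀ i j, |(√M.det • M⁻¹) i j - y ^ ((n : ℝ) / 2 - 1) * (1 : Matrix (Fin n) (Fin n) ℝ) i j|
        ≤ η := by
  choose δ hδ h using fun p : Fin n × Fin n => sgc1 p.1 p.2 a b η ha hη
  obtain ⟨d, hd, hd'⟩ : ∃ d > 0, ∀ p, d ≤ δ p := by
    rcases isEmpty_or_nonempty (Fin n × Fin n) with he | he
    · exact ⟨1, one_pos, fun p => he.elim p⟩
    · obtain ⟨p, hp⟩ := Finite.exists_min δ
      exact ⟨δ p, hδ p, hp⟩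
  refine ⟨d, hd, fun M y hy1 hy2 hM i j => ?_⟩
  rw [fe_eq]
  exact h (i, j) M y hy1 hy2 fun k l => (hM k l).trans (hd' (i, j))

/-- (JE_SGC) -/
theorem rowSGC : LR.JE.RowSGC := fun n _ a b η ha hη => sgc n a b η ha hη

end Vale.Agent.P088.H443
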